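import Vale.Agent.Lib.P176.Modules

/-!
# P176 (finitistic dimension conjecture): rings whose projectives have bounded injective dimension

Let `A` be a ring.

* If every projective left `A`-module has injective dimension at most `d`, then every left
  `A`-module of finite projective dimension has projective dimension at most `d`; so the big
  and the little finitistic dimensions of `A` are at most `d`.
* If every projective left `A`-module is injective (for instance `A` a finite-dimensional
  self-injective algebra, such as the group algebra of a finite group over a field), then every
  module of finite projective dimension is projective; so both finitistic dimensions are `0`.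
-/

namespace Vale.Agent.Results.P176.GorensteinRings

open CategoryTheory Vale.Agent.Lib.P176

universe u

theorem result {A : Type u} [Ring A] :
    (∀ d : ℕ, (∀ P : ModuleCat.{u} A, Projective P → injectiveDimension P ≤ d) →
      ∀ N : ModuleCat.{u} A, projectiveDimension N ≠ ⊤ → projectiveDimension N ≤ d) ∧
    ((∀ (P : Type u) [AddCommGroup P] [Module A P],
        Module.Projective A P → Module.Injective A P) →
      ∀ (N : Type u) [AddCommGroup N] [Module A N],
        projectiveDimension (ModuleCat.of A N) ≠ ⊤ → Module.Projective A N) :=
  ⟨fun d hG N hN => projectiveDimension_le_of_gorenstein d hG N hN,
   fun hQF N _ _ hN => projective_of_selfInjective hQF N hN⟩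

end Vale.Agent.Results.P176.GorensteinRings
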